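import Vale.Agent.P331B.Final

/-!
# P331: one sample per element, almighty adversary, all matroids: ratio 1 / O(log log rank)
-/

namespace Vale.Agent.Results.P331.OneSampleLogLog

open Vale.Agent.P331

/-- Every finite matroid of rank `r` admits an online rule using one sample per element which is
`1 / (4 (⌈log₂ ⌈log₂ r⌉⌉ + 13))`-competitive against the almighty adversary. -/
theorem result (E : Type) [Fintype E] [DecidableEq E] (M : Matroid E) (hE : M.E = Set.univ)
    (r : ℕ) (hr : M.eRank = r) :
    ∃ ρ : Rule E, ρ.Competitive M (1 / (4 * (Nat.clog 2 (Nat.clog 2 r) + 13))) := by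
  refine Vale.Agent.P331B.main M r (fun I hI => ?_)
  have h := hI.encard_le_eRank
  rw [hr, Set.encard_coe_eq_coe_finsetCard] at h
  exact_mod_cast h

end Vale.Agent.Results.P331.OneSampleLogLog
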